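import Vale.Agent.P105.Defs
import Vale.Agent.P105.Main

namespace Vale.Agent.Results.P105.QuarticSalem

open Vale.Agent.P105

theorem result :
    (∃ l : ℝ, 1 / 2 < l ∧ l < 1 ∧ ¬ IsPisot l⁻¹ ∧ IsSingular (bernoulli l)) ∧
    (∀ l : ℝ, 1 / 2 < l → l < 1 →
      (l ^ 4 - l ^ 3 - l ^ 2 - l + 1 = 0 ∨ l ^ 4 - 2 * l ^ 3 + l ^ 2 - 2 * l + 1 = 0) →
        ¬ IsPisot l⁻¹ ∧ IsSingular (bernoulli l)) ∧
    (∃ l : ℝ, 1 / 2 < l ∧ l < 1 ∧ l ^ 4 - l ^ 3 - l ^ 2 - l + 1 = 0) ∧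
    (∃ l : ℝ, 1 / 2 < l ∧ l < 1 ∧ l ^ 4 - 2 * l ^ 3 + l ^ 2 - 2 * l + 1 = 0) := by
  have h1 := exists_root (fun l => l ^ 4 - l ^ 3 - l ^ 2 - l + 1) (by fun_prop) (by norm_num)
    (by norm_num)
  have h2 := exists_root (fun l => l ^ 4 - 2 * l ^ 3 + l ^ 2 - 2 * l + 1) (by fun_prop)
    (by norm_num) (by norm_num)
  refine ⟨?_, fun l h0 h1 h => h.elim (case1 h0 h1) (case2 h0 h1), h1, h2⟩
  obtain ⟨l, h0, h1, h⟩ := h1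
  exact ⟨l, h0, h1, case1 h0 h1 h⟩

end Vale.Agent.Results.P105.QuarticSalem
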